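import Mathlib

open Matrix
open scoped ComplexOrder MatrixOrder

namespace Vale.Agent.P372.H405

variable {P : Type*} [Fintype P] [DecidableEq P]

theorem trace_mul_psd {A B : Matrix P P ℂ} (hA : A.PosSemidef) (hB : B.PosSemidef) :
    0 ≤ (A * B).trace.re := by
  obtain ⟨C, hC⟩ := CStarAlgebra.nonneg_iff_eq_star_mul_self.mp hA.nonneg
  rw [star_eq_conjTranspose] at hC
  have h : (C * B * Cᴴ).PosSemidef := hB.mul_mul_conjTranspose_same C
  have h1 : (A * B).trace = (C * B * Cᴴ).trace := by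
    rw [hC, Matrix.mul_assoc, Matrix.trace_mul_comm]
  rw [h1]
  exact (Complex.le_def.mp h.trace_nonneg).1

theorem trace_re_nonneg {A : Matrix P P ℂ} (hA : A.PosSemidef) : 0 ≤ A.trace.re :=
  (Complex.le_def.mp hA.trace_nonneg).1

/-- The quadratic form of a block matrix, tested on two square matrices. -/
theorem block_quad {X C D Y : Matrix P P ℂ} (h : (fromBlocks X C D Y).PosSemidef)
    (A B : Matrix P P ℂ) :
    0 ≤ (Aᴴ * X * A + Aᴴ * C * B + Bᴴ * D * A + Bᴴ * Y * B).trace.re := by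
  have h1 := h.conjTranspose_mul_mul_same (fromRows A B)
  have h2 := trace_re_nonneg h1
  rw [conjTranspose_fromRows_eq_fromCols_conjTranspose, fromCols_mul_fromBlocks,
    fromCols_mul_fromRows] at h2
  refine h2.trans_eq ?_
  congr 2
  noncomm_ring

structure IsFlip (S : Matrix P P ℂ →ₗ[ℂ] Matrix P P ℂ) : Prop where
  trace : ∀ X, (S X).trace = X.trace
  one : S 1 = 1
  herm : ∀ X, S Xᴴ = (S X)ᴴ
  dual : ∀ X Y, (S X * Y).trace = (X * S Y).trace
  block : ∀ X C Y, (fromBlocks X C Cᴴ Y).PosSemidef →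
    (fromBlocks (S X) (S C) (S C)ᴴ (S Y)).PosSemidef
  co : ∀ Y, (S (Yᴴ * Y) - S Y * (S Y)ᴴ).PosSemidef

variable {S : Matrix P P ℂ →ₗ[ℂ] Matrix P P ℂ}

theorem flip_test (hS : IsFlip S) {X C Y : Matrix P P ℂ} (hX : X.PosSemidef)
    (h : (fromBlocks X C Cᴴ Y).PosSemidef) (G : Matrix P P ℂ) :
    2 * (S C * G).trace.re ≤ (S X * (G * Gᴴ)).trace.re + Y.trace.re := by
  have h1 := block_quad h (-(S G)ᴴ) 1
  have h2 := trace_mul_psd hX (hS.co Gᴴ)
  rw [conjTranspose_conjTranspose, hS.herm, conjTranspose_conjTranspose, Matrix.mul_sub, trace_sub,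
    Complex.sub_re] at h2
  have h3 : (X * S (G * Gᴴ)).trace = (S X * (G * Gᴴ)).trace := (hS.dual _ _).symm
  rw [h3] at h2
  have h4 : (S C * G).trace = (C * S G).trace := hS.dual _ _
  rw [h4]
  simp only [conjTranspose_neg, conjTranspose_conjTranspose, conjTranspose_one, Matrix.neg_mul,
    Matrix.mul_neg, neg_neg, Matrix.one_mul, Matrix.mul_one, trace_add, trace_neg, Complex.add_re,
    Complex.neg_re] at h1
  have h5 : (S G * X * (S G)ᴴ).trace = (X * ((S G)ᴴ * S G)).trace := by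
    rw [Matrix.mul_assoc, Matrix.trace_mul_comm, Matrix.mul_assoc]
  have h6 : (S G * C).trace = (C * S G).trace := Matrix.trace_mul_comm _ _
  have h7 : (Cᴴ * (S G)ᴴ).trace.re = (C * S G).trace.re := by
    rw [← conjTranspose_mul, trace_conjTranspose, h6]
    simp
  rw [h5, h6, h7] at h1
  linarith

theorem block_diag {X : Matrix P P ℂ} (hX : X.PosSemidef) :
    (fromBlocks X X Xᴴ X).PosSemidef := by
  have h := hX.mul_mul_conjTranspose_same (fromRows (1 : Matrix P P ℂ) (1 : Matrix P P ℂ))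
  rw [conjTranspose_fromRows_eq_fromCols_conjTranspose, fromRows_mul, fromRows_mul_fromCols] at h
  simpa [hX.isHermitian.eq] using h

theorem IsFlip.posSemidef (hS : IsFlip S) {X : Matrix P P ℂ} (hX : X.PosSemidef) :
    (S X).PosSemidef :=
  (hS.block X X X (block_diag hX)).submatrix Sum.inl

/-- `S X` is positive definite if `X` is. -/
theorem IsFlip.posDef (hS : IsFlip S) {X : Matrix P P ℂ} (hX : X.PosDef) : (S X).PosDef := by
  have hi : Invertible X := hX.isUnit.invertible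
  have h1 : (fromBlocks X 1 (1 : Matrix P P ℂ)ᴴ X⁻¹).PosSemidef := by
    rw [PosDef.fromBlocks₁₁ _ _ hX]
    simpa using PosSemidef.zero
  have h2 := hS.block _ _ _ h1
  rw [hS.one] at h2
  have h0 := hS.posSemidef hX.posSemidef
  refine PosDef.of_dotProduct_mulVec_pos h0.isHermitian fun v hv => ?_
  have h3 := h0.dotProduct_mulVec_nonneg v
  refine lt_of_le_of_ne h3 fun h4 => hv ?_
  have h5 : ∀ t : ℝ, 2 * t * (star v ⬝ᵥ v).re ≤ (star v ⬝ᵥ (S X⁻¹ *ᵥ v)).re := by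
    intro t
    have h6 := (Complex.le_def.mp (h2.dotProduct_mulVec_nonneg (Sum.elim (-(t : ℂ) • v) v))).1
    have h8 : star (Sum.elim (-(t : ℂ) • v) v) = Sum.elim (-(t : ℂ) • star v) (star v) := by
      ext i
      cases i <;> simp
    rw [h8, fromBlocks_mulVec, sumElim_dotProduct_sumElim] at h6
    simp only [Sum.elim_comp_inl, Sum.elim_comp_inr, Sum.elim_inl, Sum.elim_inr, conjTranspose_one,
      one_mulVec, mulVec_smul, dotProduct_add, dotProduct_smul, smul_dotProduct, ← h4,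
      smul_eq_mul, mul_zero, zero_add] at h6
    simp only [Complex.zero_re, Complex.add_re, Complex.mul_re, Complex.neg_re, Complex.neg_im,
      Complex.ofReal_re, Complex.ofReal_im, neg_zero, zero_mul, sub_zero] at h6
    linarith
  have h9 : (star v ⬝ᵥ v).re = 0 := by
    have h10 : 0 ≤ (star v ⬝ᵥ v).re := (Complex.le_def.mp (dotProduct_star_self_nonneg v)).1
    by_contra hne
    have h11 : 0 < (star v ⬝ᵥ v).re := lt_of_le_of_ne h10 (Ne.symm hne)
    have h12 := h5 (((star v ⬝ᵥ (S X⁻¹ *ᵥ v)).re + 1) / (2 * (star v ⬝ᵥ v).re))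
    rw [show 2 * (((star v ⬝ᵥ (S X⁻¹ *ᵥ v)).re + 1) / (2 * (star v ⬝ᵥ v).re)) *
      (star v ⬝ᵥ v).re = (star v ⬝ᵥ (S X⁻¹ *ᵥ v)).re + 1 by field_simp] at h12
    linarith
  have h13 : star v ⬝ᵥ v = 0 := by
    refine Complex.ext h9 ?_
    exact (Complex.le_def.mp (dotProduct_star_self_nonneg v)).2.symm
  exact dotProduct_star_self_eq_zero.mp h13

/-- The flip inequality for a corner. -/
theorem flip_le (hS : IsFlip S) {X C Y : Matrix P P ℂ} (hX : X.PosDef)
    (h : (fromBlocks X C Cᴴ Y).PosSemidef) :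
    (S C * (S X)⁻¹ * (S C)ᴴ).trace.re ≤ Y.trace.re := by
  have hσ := hS.posDef hX
  have h1 := flip_test hS hX.posSemidef h ((S X)⁻¹ * (S C)ᴴ)
  have h2 : (S X * ((S X)⁻¹ * (S C)ᴴ * ((S X)⁻¹ * (S C)ᴴ)ᴴ)).trace =
      (S C * (S X)⁻¹ * (S C)ᴴ).trace := by
    have hu : IsUnit (S X).det := (Matrix.isUnit_iff_isUnit_det _).mp hσ.isUnit
    rw [conjTranspose_mul, conjTranspose_conjTranspose, (hσ.inv.isHermitian).eq, Matrix.mul_assoc,
      Matrix.mul_nonsing_inv_cancel_left _ _ hu, Matrix.trace_mul_comm]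
  rw [h2, ← Matrix.mul_assoc] at h1
  linarith

/-- START: every corner of `(X, Y)` gives a Hermitian corner of `(S X, S Y)`. -/
theorem start (hS : IsFlip S) {X C Y : Matrix P P ℂ} (hX : X.PosDef)
    (h : (fromBlocks X C Cᴴ Y).PosSemidef) :
    ∃ Z : Matrix P P ℂ, Z.IsHermitian ∧ (fromBlocks (S X) Z Z (S Y)).PosSemidef ∧
      (∀ t : ℝ, 4 * t * C.trace.re - 2 * t ^ 2 * (X.trace.re + Y.trace.re) ≤ Z.trace.re) := by
  have hσ := hS.posDef hX
  have hflip := flip_le hS hX h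
  set σ := S X with hσd
  set K := S C with hK
  have hu : IsUnit σ.det := (Matrix.isUnit_iff_isUnit_det _).mp hσ.isUnit
  have hi : Invertible σ := hσ.isUnit.invertible
  have hKs : (K * σ⁻¹ * Kᴴ).PosSemidef := hσ.inv.posSemidef.mul_mul_conjTranspose_same K
  set N := σ + K * σ⁻¹ * Kᴴ with hN
  have hNd : N.PosDef := hσ.add_posSemidef hKs
  have huN : IsUnit N.det := (Matrix.isUnit_iff_isUnit_det _).mp hNd.isUnit
  have hNi := hNd.inv.isHermitian.eq
  have hσi := hσ.inv.isHermitian.eq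
  have hb := hS.block _ _ _ h
  rw [← hσd, ← hK] at hb
  rw [PosDef.fromBlocks₁₁ _ _ hσ] at hb
  have hZ : ((2 : ℂ) • (Kᴴ * N⁻¹ * K)).IsHermitian := by
    rw [IsHermitian, conjTranspose_smul, conjTranspose_mul, conjTranspose_mul,
      conjTranspose_conjTranspose, hNi, Matrix.mul_assoc]
    simp
  refine ⟨(2 : ℂ) • (Kᴴ * N⁻¹ * K), hZ, ?_, ?_⟩
  · have h1 : (fromBlocks σ ((2 : ℂ) • (Kᴴ * N⁻¹ * K)) ((2 : ℂ) • (Kᴴ * N⁻¹ * K))ᴴ
        (S Y)).PosSemidef := by
      rw [PosDef.fromBlocks₁₁ _ _ hσ, hZ.eq]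
      have h2 : S Y - (2 : ℂ) • (Kᴴ * N⁻¹ * K) * σ⁻¹ * (2 : ℂ) • (Kᴴ * N⁻¹ * K) =
          (S Y - Kᴴ * σ⁻¹ * K) +
            ((1 - (2 : ℂ) • (σ * N⁻¹)) * K)ᴴ * σ⁻¹ * ((1 - (2 : ℂ) • (σ * N⁻¹)) * K) := by
        have e1 : K * σ⁻¹ * Kᴴ = N - σ := by rw [hN]; abel
        have e2 : (2 : ℂ) • (Kᴴ * N⁻¹ * K) * σ⁻¹ * (2 : ℂ) • (Kᴴ * N⁻¹ * K) =
            (4 : ℂ) • (Kᴴ * N⁻¹ * (K * σ⁻¹ * Kᴴ) * N⁻¹ * K) := by
          simp only [Matrix.smul_mul, Matrix.mul_smul, smul_smul, Matrix.mul_assoc]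
          norm_num
        have e3 : Kᴴ * N⁻¹ * (N - σ) * N⁻¹ * K = Kᴴ * N⁻¹ * K - Kᴴ * N⁻¹ * σ * N⁻¹ * K := by
          rw [Matrix.mul_sub, Matrix.sub_mul, Matrix.sub_mul]
          congr 1
          rw [Matrix.mul_assoc Kᴴ N⁻¹ N, Matrix.nonsing_inv_mul _ huN, Matrix.mul_one]
        have e4 : ((1 - (2 : ℂ) • (σ * N⁻¹)) * K)ᴴ * σ⁻¹ * ((1 - (2 : ℂ) • (σ * N⁻¹)) * K) =
            Kᴴ * σ⁻¹ * K - (4 : ℂ) • (Kᴴ * N⁻¹ * K) + (4 : ℂ) • (Kᴴ * N⁻¹ * σ * N⁻¹ * K) := by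
          rw [conjTranspose_mul, conjTranspose_sub, conjTranspose_smul, conjTranspose_mul,
            conjTranspose_one, hNi, hσ.isHermitian.eq, star_ofNat]
          have f1 : Kᴴ * (1 - (2 : ℂ) • (N⁻¹ * σ)) * σ⁻¹ = Kᴴ * σ⁻¹ - (2 : ℂ) • (Kᴴ * N⁻¹) := by
            rw [Matrix.mul_sub, Matrix.sub_mul, Matrix.mul_one, Matrix.mul_smul, Matrix.smul_mul,
              ← Matrix.mul_assoc, Matrix.mul_assoc (Kᴴ * N⁻¹), Matrix.mul_nonsing_inv _ hu,
              Matrix.mul_one]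
          rw [f1, Matrix.sub_mul 1, Matrix.one_mul, Matrix.smul_mul, Matrix.sub_mul, Matrix.mul_sub,
            Matrix.mul_sub, Matrix.mul_smul, Matrix.mul_smul, Matrix.smul_mul, Matrix.smul_mul]
          have f2 : Kᴴ * σ⁻¹ * (σ * N⁻¹ * K) = Kᴴ * N⁻¹ * K := by
            rw [Matrix.mul_assoc σ, ← Matrix.mul_assoc (Kᴴ * σ⁻¹), Matrix.mul_assoc Kᴴ,
              Matrix.nonsing_inv_mul _ hu, Matrix.mul_one, Matrix.mul_assoc]
          have f3 : Kᴴ * N⁻¹ * (σ * N⁻¹ * K) = Kᴴ * N⁻¹ * σ * N⁻¹ * K := by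
            simp only [Matrix.mul_assoc]
          rw [f2, f3, smul_smul]
          norm_num
          module
        rw [e2, e1, e3, e4, smul_sub]
        abel
      rw [h2]
      exact hb.add (hσ.inv.posSemidef.conjTranspose_mul_mul_same _)
    rwa [hZ.eq] at h1
  · intro t
    have h3 := trace_re_nonneg
      (hNd.inv.posSemidef.conjTranspose_mul_mul_same (K - (t : ℂ) • N))
    have h4 : ((K - (t : ℂ) • N)ᴴ * N⁻¹ * (K - (t : ℂ) • N)) =
        Kᴴ * N⁻¹ * K - (t : ℂ) • Kᴴ - (t : ℂ) • K + ((t : ℂ) * t) • N := by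
      rw [conjTranspose_sub, conjTranspose_smul, hNd.isHermitian.eq, Matrix.sub_mul,
        Matrix.sub_mul, Matrix.mul_sub, Matrix.mul_sub, Matrix.mul_smul, Matrix.mul_smul,
        Matrix.smul_mul, Matrix.smul_mul, Matrix.smul_mul, Matrix.mul_nonsing_inv _ huN,
        Matrix.mul_assoc Kᴴ N⁻¹ N, Matrix.nonsing_inv_mul _ huN, Matrix.mul_one, Matrix.one_mul,
        Matrix.one_mul, smul_smul]
      simp only [Complex.star_def, Complex.conj_ofReal]
      abel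
    have h5 : N.trace.re ≤ X.trace.re + Y.trace.re := by
      rw [hN, trace_add, Complex.add_re, hσd, hS.trace]
      linarith
    have h6 : K.trace = C.trace := hS.trace _
    have h7 : (Kᴴ).trace.re = C.trace.re := by
      rw [trace_conjTranspose, h6]
      simp
    rw [h4, trace_add, trace_sub, trace_sub, trace_smul, trace_smul, trace_smul, Complex.add_re,
      Complex.sub_re, Complex.sub_re, smul_eq_mul, smul_eq_mul, smul_eq_mul,
      ← Complex.ofReal_mul, Complex.re_ofReal_mul, Complex.re_ofReal_mul, Complex.re_ofReal_mul,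
      h7, h6] at h3
    rw [trace_smul, smul_eq_mul]
    have h8 : ((2 : ℂ) * (Kᴴ * N⁻¹ * K).trace).re = 2 * (Kᴴ * N⁻¹ * K).trace.re := by
      simp
    rw [h8]
    nlinarith [mul_nonneg (mul_self_nonneg t) (sub_nonneg.mpr h5)]

end Vale.Agent.P372.H405
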